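import Mathlib

/-! The observation channel and its quantile coupling. -/

namespace Vale.Agent.P161

open MeasureTheory Set
open scoped unitInterval

/-- quantile function of the density `(2 + m y) / 4` on `[-1, 1]` -/
noncomputable def qf (m v : ℝ) : ℝ := (8 * v + m - 4) / (2 + √(4 + m * (8 * v + m - 4)))

/-- distribution function of the density -/
noncomputable def Fc (m y : ℝ) : ℝ := (y + 1) / 2 + m * (y ^ 2 - 1) / 8

/-- jump coefficient -/
noncomputable def ph (y m : ℝ) : ℝ := y / (2 + m * y)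

/-- drift coefficient -/
noncomputable def ps (m : ℝ) : ℝ := ∫ y in (-1 : ℝ)..1, y ^ 2 / (4 * (2 + m * y))

variable {m m' y y' : ℝ}

lemma one_le_den (hm : |m| ≤ 1) (hy : |y| ≤ 1) : 1 ≤ 2 + m * y := by
  have : |m * y| ≤ 1 := by rw [abs_mul]; exact mul_le_one₀ hm (abs_nonneg _) hy
  linarith [(abs_le.1 this).1]

lemma qf_Fc (hm : |m| ≤ 1) (hy : |y| ≤ 1) : qf m (Fc m y) = y := by
  have h := one_le_den hm hy
  unfold qf Fc
  have e : 4 + m * (8 * ((y + 1) / 2 + m * (y ^ 2 - 1) / 8) + m - 4) = (2 + m * y) ^ 2 := by ring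
  rw [e, Real.sqrt_sq (by linarith), div_eq_iff (by linarith)]
  ring

lemma exists_Fc (m : ℝ) (v : I) : ∃ y, |y| ≤ 1 ∧ Fc m y = v := by
  have hc : ContinuousOn (Fc m) (Icc (-1) 1) := by unfold Fc; fun_prop
  have := intermediate_value_Icc (show (-1 : ℝ) ≤ 1 by norm_num) hc
  obtain ⟨y, hy, e⟩ := this (show (v : ℝ) ∈ Icc (Fc m (-1)) (Fc m 1) by
    unfold Fc; norm_num)
  exact ⟨y, abs_le.2 hy, e⟩

lemma abs_qf_le (hm : |m| ≤ 1) (v : I) : |qf m v| ≤ 1 := by
  obtain ⟨y, hy, e⟩ := exists_Fc m v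
  rw [← e, qf_Fc hm hy]; exact hy

lemma qf_lip (hm : |m| ≤ 1) (hm' : |m'| ≤ 1) (v : I) : |qf m v - qf m' v| ≤ |m - m'| / 2 := by
  obtain ⟨y, hy, e⟩ := exists_Fc m v
  obtain ⟨y', hy', e'⟩ := exists_Fc m' v
  have h1 : qf m v = y := by rw [← e, qf_Fc hm hy]
  have h2 : qf m' v = y' := by rw [← e', qf_Fc hm' hy']
  rw [h1, h2]
  have key : (y - y') * (4 + m * (y + y')) = (m - m') * (1 - y' ^ 2) := by
    have : Fc m y = Fc m' y' := e.trans e'.symm
    unfold Fc at this
    linear_combination 8 * this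
  have a1 := one_le_den hm hy
  have a2 := one_le_den hm hy'
  have a3 : 0 ≤ 1 - y' ^ 2 := by nlinarith [abs_le.1 hy']
  have a4 := congrArg abs key
  rw [abs_mul, abs_mul, abs_of_nonneg a3, abs_of_nonneg (show 0 ≤ 4 + m * (y + y') by linarith)]
    at a4
  nlinarith [abs_nonneg (y - y'), abs_nonneg (m - m'), sq_nonneg y']

lemma continuous_qf : Continuous fun p : ℝ × ℝ => qf p.1 p.2 := by
  unfold qf
  refine Continuous.div (by fun_prop) (by fun_prop) fun p => ?_
  positivity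

lemma continuous_comp_qf (hm : |m| ≤ 1) {g : ℝ → ℝ} (hg : ContinuousOn g (Icc (-1) 1)) :
    Continuous fun v : I => g (qf m v) :=
  hg.comp_continuous (continuous_qf.comp (continuous_const.prodMk continuous_subtype_val))
    fun v => abs_le.1 (abs_qf_le hm v)

lemma integral_qf (hm : |m| ≤ 1) {g : ℝ → ℝ} (hg : ContinuousOn g (Icc (-1) 1)) :
    ∫ v : I, g (qf m v) = ∫ y in (-1 : ℝ)..1, g y * ((2 + m * y) / 4) := by
  have e1 : ∫ v : I, g (qf m v) = ∫ v in (0 : ℝ)..1, g (qf m v) := by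
    rw [unitInterval.volume_def, integral_subtype_comap measurableSet_Icc (fun v => g (qf m v)),
      integral_Icc_eq_integral_Ioc, intervalIntegral.integral_of_le zero_le_one]
  have hd : ∀ x ∈ uIcc (-1 : ℝ) 1, HasDerivAt (Fc m) ((2 + m * x) / 4) x := by
    intro x _
    have := (((hasDerivAt_id x).add_const 1).div_const 2).add
      ((((hasDerivAt_pow 2 x).sub_const 1).const_mul m).div_const 8)
    refine HasDerivAt.congr_deriv this ?_
    norm_num; ring
  have hI : uIcc (-1 : ℝ) 1 = Icc (-1) 1 := uIcc_of_le (by norm_num)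
  have e2 := intervalIntegral.integral_comp_mul_deriv' (g := fun v => g (qf m v)) hd
    (by fun_prop) (by
      refine hg.comp (continuous_qf.comp (continuous_const.prodMk continuous_id)).continuousOn ?_
      rintro _ ⟨y, hy, rfl⟩
      rw [hI] at hy
      rw [qf_Fc hm (abs_le.2 hy)]; exact hy)
  have f1 : Fc m (-1) = 0 := by unfold Fc; norm_num
  have f2 : Fc m 1 = 1 := by unfold Fc; norm_num
  rw [f1, f2] at e2
  rw [e1, ← e2]
  refine intervalIntegral.integral_congr fun y hy => ?_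
  rw [hI] at hy
  simp only [Function.comp]
  rw [qf_Fc hm (abs_le.2 hy)]

lemma integrable_I {f : I → ℝ} (hf : Continuous f) : Integrable f :=
  hf.integrable_of_hasCompactSupport (HasCompactSupport.of_compactSpace f)

lemma contOn_div (hm : |m| ≤ 1) {g : ℝ → ℝ} (hg : Continuous g) :
    ContinuousOn (fun y => g y / (2 + m * y)) (Icc (-1) 1) :=
  hg.continuousOn.div (by fun_prop) fun y hy => by linarith [one_le_den hm (abs_le.2 hy)]

lemma integral_qf_div (hm : |m| ≤ 1) {g : ℝ → ℝ} (hg : Continuous g) :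
    ∫ v : I, g (qf m v) / (2 + m * qf m v) = ∫ y in (-1 : ℝ)..1, g y / 4 := by
  rw [integral_qf hm (contOn_div hm hg)]
  refine intervalIntegral.integral_congr fun y hy => ?_
  rw [uIcc_of_le (by norm_num)] at hy
  have : 2 + m * y ≠ 0 := by linarith [one_le_den hm (abs_le.2 hy)]
  field_simp

lemma integral_mart (hm : |m| ≤ 1) (A B : ℝ) :
    ∫ v : I, (2 * A + qf m v * B) / (2 + m * qf m v) = A := by
  rw [integral_qf_div hm (g := fun y => 2 * A + y * B) (by fun_prop)]
  rw [intervalIntegral.integral_div, intervalIntegral.integral_add (by simp)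
    (Continuous.intervalIntegrable (by fun_prop) _ _), intervalIntegral.integral_mul_const]
  simp; ring

lemma integral_contr (hm : |m| ≤ 1) (A : ℝ) :
    ∫ v : I, (A * (2 - qf m v ^ 2 / 4)) / (2 + m * qf m v) = 23 / 24 * A := by
  rw [integral_qf_div hm (g := fun y => A * (2 - y ^ 2 / 4)) (by fun_prop)]
  rw [intervalIntegral.integral_div, intervalIntegral.integral_const_mul,
    intervalIntegral.integral_sub (by simp) (Continuous.intervalIntegrable (by fun_prop) _ _),
    intervalIntegral.integral_div]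
  simp; ring

lemma contOn_ps (hm : |m| ≤ 1) :
    ContinuousOn (fun y : ℝ => y ^ 2 / (4 * (2 + m * y))) (uIcc (-1) 1) := by
  rw [uIcc_of_le (by norm_num)]
  exact ContinuousOn.div (by fun_prop) (by fun_prop)
    fun y hy => by linarith [one_le_den hm (abs_le.2 hy)]

lemma integral_ph (hm : |m| ≤ 1) (hm' : |m'| ≤ 1) :
    ∫ v : I, ph (qf m v) m' = (m - m') * ps m' := by
  rw [integral_qf hm (g := fun y => ph y m') (contOn_div hm' continuous_id)]
  have : ∫ y in (-1 : ℝ)..1, ph y m' * ((2 + m * y) / 4) =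
      ∫ y in (-1 : ℝ)..1, (y / 4 + (m - m') * (y ^ 2 / (4 * (2 + m' * y)))) := by
    refine intervalIntegral.integral_congr fun y hy => ?_
    rw [uIcc_of_le (by norm_num)] at hy
    have : 2 + m' * y ≠ 0 := by linarith [one_le_den hm' (abs_le.2 hy)]
    have : 2 + y * m' ≠ 0 := by linarith [one_le_den hm' (abs_le.2 hy)]
    simp only [ph]
    field_simp
    ring
  rw [this, intervalIntegral.integral_add (Continuous.intervalIntegrable (by fun_prop) _ _)
    ((contOn_ps hm').intervalIntegrable.const_mul _), intervalIntegral.integral_const_mul,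
    intervalIntegral.integral_div]
  simp [ps]

lemma abs_ps_le (hm : |m| ≤ 1) : |ps m| ≤ 1 / 2 := by
  have := intervalIntegral.norm_integral_le_of_norm_le_const (a := -1) (b := 1) (C := 1 / 4)
    (f := fun y : ℝ => y ^ 2 / (4 * (2 + m * y))) (fun y hy => by
      rw [uIoc_of_le (by norm_num)] at hy
      have h1 : |y| ≤ 1 := abs_le.2 ⟨hy.1.le, hy.2⟩
      have := one_le_den hm h1
      rw [Real.norm_eq_abs, abs_of_nonneg (by positivity), div_le_iff₀ (by positivity)]
      nlinarith [abs_le.1 h1])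
  rw [Real.norm_eq_abs] at this
  norm_num at this
  unfold ps; linarith

lemma ps_lip (hm : |m| ≤ 1) (hm' : |m'| ≤ 1) : |ps m - ps m'| ≤ |m - m'| / 2 := by
  unfold ps
  rw [← intervalIntegral.integral_sub (contOn_ps hm).intervalIntegrable
    (contOn_ps hm').intervalIntegrable]
  have := intervalIntegral.norm_integral_le_of_norm_le_const (a := -1) (b := 1) (C := |m - m'| / 4)
    (f := fun y : ℝ => y ^ 2 / (4 * (2 + m * y)) - y ^ 2 / (4 * (2 + m' * y))) (fun y hy => by
      rw [uIoc_of_le (by norm_num)] at hy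
      have h1 : |y| ≤ 1 := abs_le.2 ⟨hy.1.le, hy.2⟩
      have a := one_le_den hm h1
      have b := one_le_den hm' h1
      have e : y ^ 2 / (4 * (2 + m * y)) - y ^ 2 / (4 * (2 + m' * y)) =
          -(m - m') * y ^ 3 / (4 * ((2 + m * y) * (2 + m' * y))) := by
        have a' : 2 + m * y ≠ 0 := by linarith
        have b' : 2 + m' * y ≠ 0 := by linarith
        have a'' : 2 + y * m ≠ 0 := by linarith
        have b'' : 2 + y * m' ≠ 0 := by linarith
        field_simp; ring
      have c : 1 ≤ (2 + m * y) * (2 + m' * y) := one_le_mul_of_one_le_of_one_le a b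
      rw [Real.norm_eq_abs, e, abs_div, abs_mul, abs_neg, abs_pow,
        abs_of_nonneg (show 0 ≤ 4 * ((2 + m * y) * (2 + m' * y)) by linarith),
        div_le_iff₀ (by linarith)]
      have : |y| ^ 3 ≤ 1 := pow_le_one₀ (abs_nonneg _) h1
      nlinarith [abs_nonneg (m - m')])
  rw [Real.norm_eq_abs] at this
  norm_num at this
  linarith

lemma abs_ph_le (hy : |y| ≤ 1) (hm : |m| ≤ 1) : |ph y m| ≤ 1 := by
  have := one_le_den hm hy
  unfold ph
  rw [abs_div, abs_of_nonneg (show 0 ≤ 2 + m * y by linarith), div_le_iff₀ (by linarith)]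
  linarith

lemma ph_lip (hy : |y| ≤ 1) (hm : |m| ≤ 1) (hy' : |y'| ≤ 1) (hm' : |m'| ≤ 1) :
    |ph y m - ph y' m'| ≤ 2 * |y - y'| + |m - m'| := by
  have a := one_le_den hm hy
  have b := one_le_den hm' hy'
  have e : ph y m - ph y' m' =
      (2 * (y - y') - y * y' * (m - m')) / ((2 + m * y) * (2 + m' * y')) := by
    have a' : 2 + m * y ≠ 0 := by linarith
    have b' : 2 + m' * y' ≠ 0 := by linarith
    have a'' : 2 + y * m ≠ 0 := by linarith
    have b'' : 2 + y' * m' ≠ 0 := by linarith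
    unfold ph; field_simp; ring
  have c : 1 ≤ (2 + m * y) * (2 + m' * y') := one_le_mul_of_one_le_of_one_le a b
  rw [e, abs_div, abs_of_nonneg (show 0 ≤ (2 + m * y) * (2 + m' * y') by linarith),
    div_le_iff₀ (by linarith)]
  have h1 := abs_sub (2 * (y - y')) (y * y' * (m - m'))
  rw [abs_mul, abs_mul, abs_mul, abs_two] at h1
  have h2 : |y| * |y'| ≤ 1 := mul_le_one₀ hy (abs_nonneg _) hy'
  have h3 := mul_le_mul_of_nonneg_right h2 (abs_nonneg (m - m'))
  have h4 : 0 ≤ 2 * |y - y'| + |m - m'| := by positivity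
  nlinarith

lemma continuous_ph (hm : |m| ≤ 1) (hm' : |m'| ≤ 1) : Continuous fun v : I => ph (qf m v) m' :=
  continuous_comp_qf hm (g := fun y => ph y m') (contOn_div hm' continuous_id)

lemma abs_mul_sub_le (a b a' b' : ℝ) : |a * b - a' * b'| ≤ |a| * |b - b'| + |a - a'| * |b'| := by
  rw [← abs_mul, ← abs_mul]
  refine le_trans (le_of_eq ?_) (abs_add_le _ _)
  congr 1; ring

lemma step_alg {a b b' dC dz dm : ℝ} (ha : 0 ≤ a) (_hb : 0 ≤ b) (hb' : 0 ≤ b') (h1 : b' ≤ 1)
    (p1 : 0 ≤ dC) (_p2 : 0 ≤ dz) (_p3 : 0 ≤ dm) :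
    2 * a * (3 / 2 * dC * (b + b') + b' ^ 2 * (2 * dz + 2 * dm + 5 * dC)) +
      (48 * dC ^ 2 + b' ^ 2 * (12 * dm ^ 2 + 3 * dz ^ 2)) ≤
      100 * (dC ^ 2 + (b ^ 2 + b' ^ 2) * (a ^ 2 + dz ^ 2 + dm ^ 2)) := by
  have h3 : a * b' ^ 2 * dC ≤ a * b' * dC := by
    have : b' ^ 2 ≤ b' := by nlinarith
    gcongr
  have q1 : 2 * (a * b * dC) ≤ (a * b) ^ 2 + dC ^ 2 := by nlinarith [sq_nonneg (a * b - dC)]
  have q2 : 2 * (a * b' * dC) ≤ (a * b') ^ 2 + dC ^ 2 := by nlinarith [sq_nonneg (a * b' - dC)]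
  have q3 : b' ^ 2 * (2 * (a * dz)) ≤ b' ^ 2 * (a ^ 2 + dz ^ 2) := by
    gcongr; nlinarith [sq_nonneg (a - dz)]
  have q4 : b' ^ 2 * (2 * (a * dm)) ≤ b' ^ 2 * (a ^ 2 + dm ^ 2) := by
    gcongr; nlinarith [sq_nonneg (a - dm)]
  have r1 : 0 ≤ b ^ 2 * dz ^ 2 := by positivity
  have r2 : 0 ≤ b ^ 2 * dm ^ 2 := by positivity
  have r3 : 0 ≤ b' ^ 2 * dz ^ 2 := by positivity
  have r4 : 0 ≤ b' ^ 2 * dm ^ 2 := by positivity
  have r5 : 0 ≤ b ^ 2 * a ^ 2 := by positivity
  have r6 : 0 ≤ b' ^ 2 * a ^ 2 := by positivity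
  have r7 : 0 ≤ dC ^ 2 := by positivity
  linarith

/-- one step of the coupled messages -/
lemma step_bound {D C C' z z' n n' : ℝ} (hC' : |C'| ≤ 1) (hz : |z| ≤ 3)
    (hn : |n| ≤ 1) (hn' : |n'| ≤ 1) (hm : |m| ≤ 1) (hm' : |m'| ≤ 1)
    (e : m = n + z * C) (e' : m' = n' + z' * C') :
    ∫ v : I, (D + (ph (qf m v) n * C - ph (qf m' v) n' * C')) ^ 2 ≤
      D ^ 2 + 100 * ((C - C') ^ 2 + (C ^ 2 + C' ^ 2) * (D ^ 2 + (z - z') ^ 2 + (m - m') ^ 2)) := by
  have c1 := continuous_ph hm hn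
  have c2 := continuous_ph hm' hn'
  set J : I → ℝ := fun v => ph (qf m v) n * C - ph (qf m' v) n' * C' with hJ
  have cJ : Continuous J := (c1.mul continuous_const).sub (c2.mul continuous_const)
  set dC := |C - C'|
  set dz := |z - z'|
  set dm := |m - m'|
  have p1 : 0 ≤ dC := abs_nonneg _
  have p2 : 0 ≤ dz := abs_nonneg _
  have p3 : 0 ≤ dm := abs_nonneg _
  have p4 := abs_nonneg C
  have p5 := abs_nonneg C'
  have p6 := abs_nonneg D
  have hdn : |n - n'| ≤ dm + dz + 3 * dC := by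
    have : n - n' = (m - m') - (z * C - z' * C') := by rw [e, e']; ring
    rw [this]
    have h1 := abs_sub (m - m') (z * C - z' * C')
    have h2 := abs_mul_sub_le z C z' C'
    nlinarith
  have hJb : ∀ v, J v ^ 2 ≤ 48 * dC ^ 2 + |C'| ^ 2 * (12 * dm ^ 2 + 3 * dz ^ 2) := by
    intro v
    have h1 := abs_mul_sub_le (ph (qf m v) n) C (ph (qf m' v) n') C'
    have h2 := abs_ph_le (abs_qf_le hm v) hn
    have h3 := ph_lip (abs_qf_le hm v) hn (abs_qf_le hm' v) hn'
    have h4 := qf_lip hm hm' v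
    have h5 : |J v| ≤ 4 * dC + |C'| * (2 * dm) + |C'| * dz := by
      have : |ph (qf m v) n - ph (qf m' v) n'| ≤ 2 * dm + dz + 3 * dC := by linarith
      have := mul_le_mul_of_nonneg_right this p5
      change |ph (qf m v) n * C - ph (qf m' v) n' * C'| ≤ _
      nlinarith
    rw [← sq_abs]
    have h6 := pow_le_pow_left₀ (abs_nonneg _) h5 2
    nlinarith [sq_nonneg (4 * dC - |C'| * (2 * dm)), sq_nonneg (4 * dC - |C'| * dz),
      sq_nonneg (|C'| * (2 * dm) - |C'| * dz)]
  have hI : ∫ v, J v = z * C ^ 2 * ps n - z' * C' ^ 2 * ps n' := by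
    simp only [hJ]
    rw [integral_sub (integrable_I (by fun_prop)) (integrable_I (by fun_prop)), integral_mul_const, integral_mul_const,
      integral_ph hm hn, integral_ph hm' hn', e, e']
    ring
  have hI2 : |∫ v, J v| ≤ 3 / 2 * dC * (|C| + |C'|) + |C'| ^ 2 * (2 * dz + 2 * dm + 5 * dC) := by
    rw [hI]
    have h1 := abs_ps_le hn
    have h2 := ps_lip hn hn'
    have e1 : z * C ^ 2 * ps n - z' * C' ^ 2 * ps n' =
        z * ps n * ((C - C') * (C + C')) + (z * ps n - z' * ps n') * C' ^ 2 := by ring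
    rw [e1]
    refine (abs_add_le _ _).trans ?_
    rw [abs_mul, abs_mul, abs_mul, abs_mul, abs_pow]
    have h3 := abs_mul_sub_le z (ps n) z' (ps n')
    have h4 := abs_ps_le hn'
    have h5 : |z * ps n - z' * ps n'| ≤ 2 * dz + 2 * dm + 5 * dC := by
      nlinarith [abs_nonneg z, abs_nonneg (ps n - ps n')]
    have h6 : |z| * |ps n| ≤ 3 / 2 := by nlinarith [abs_nonneg z, abs_nonneg (ps n)]
    have h7 := mul_le_mul h6 (mul_le_mul_of_nonneg_left (abs_add_le C C') p1) (by positivity)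
      (by norm_num)
    have h8 := mul_le_mul_of_nonneg_right h5 (sq_nonneg |C'|)
    nlinarith
  have hsq : ∫ v, (D + J v) ^ 2 = D ^ 2 + 2 * D * (∫ v, J v) + ∫ v, J v ^ 2 := by
    have : ∀ v, (D + J v) ^ 2 = D ^ 2 + 2 * D * J v + J v ^ 2 := fun v => by ring
    simp_rw [this]
    rw [integral_add (integrable_I (by fun_prop)) (integrable_I (by fun_prop)),
      integral_add (integrable_I (by fun_prop)) (integrable_I (by fun_prop)), integral_const_mul]
    simp
  have hJ2 : ∫ v, J v ^ 2 ≤ 48 * dC ^ 2 + |C'| ^ 2 * (12 * dm ^ 2 + 3 * dz ^ 2) := by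
    have := integral_mono (μ := (volume : Measure I)) (integrable_I (by fun_prop))
      (integrable_const _) hJb
    simpa using this
  change ∫ v, (D + J v) ^ 2 ≤ _
  rw [hsq, ← sq_abs (C - C'), ← sq_abs (z - z'), ← sq_abs (m - m'), ← sq_abs C, ← sq_abs C']
  have h1 : 2 * D * (∫ v, J v) ≤ 2 * |D| * |∫ v, J v| := by
    have := le_abs_self (D * ∫ v, J v)
    rw [abs_mul] at this; linarith
  have h2 := mul_le_mul_of_nonneg_left hI2 (show 0 ≤ 2 * |D| by positivity)
  have := step_alg p6 p4 p5 hC' p1 p2 p3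
  rw [sq_abs D] at this
  linarith

end Vale.Agent.P161
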