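import Mathlib

/-! Free Ising measure on a tree and factors of IID. -/

namespace Vale.Agent.P161

open MeasureTheory
open scoped Classical unitInterval

variable {V : Type*}

/-- the spin value of a Boolean -/
def spin (b : Bool) : ℝ := if b then 1 else -1

/-- the factor `(1 + θ η_u η_v) / 2` of an edge -/
noncomputable def edgeFactor (θ : ℝ) (η : V → Bool) : Sym2 V → ℝ :=
  Sym2.lift ⟨fun u v => (1 + θ * (spin (η u) * spin (η v))) / 2,
    fun u v => by simp only [mul_comm (spin (η u))]⟩

/-- the free zero-field Ising measure with parameter `θ` -/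
def IsFreeIsing (G : SimpleGraph V) (θ : ℝ) (ν : Measure (V → Bool)) : Prop :=
  IsProbabilityMeasure ν ∧
    ∀ D : Finset V, (G.induce (D : Set V)).Connected → ∀ η : V → Bool,
      ν.real {x | ∀ v ∈ D, x v = η v} =
        (1 / 2) * ∏ e ∈ D.sym2.filter (fun e => e ∈ G.edgeSet), edgeFactor θ η e

/-- independent uniform labels on the vertices -/
noncomputable def iid (V : Type*) : Measure (V → I) :=
  Measure.infinitePi (fun _ : V => (volume : Measure I))

/-- factor of IID -/
def IsFactorOfIID (G : SimpleGraph V) (ν : Measure (V → Bool)) : Prop :=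
  ∃ Φ : (V → I) → (V → Bool), Measurable Φ ∧
    (∀ g : G ≃g G, ∀ᵐ U ∂(iid V), Φ (fun v => U (g.symm v)) = fun v => Φ U (g.symm v)) ∧
    (iid V).map Φ = ν

end Vale.Agent.P161
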