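import Vale.Agent.P161.Defs

/-! Resampling a coordinate and ordered lists of ring times. -/

namespace Vale.Agent.P161

open MeasureTheory Measure Function
open scoped Classical unitInterval ENNReal

section upd

variable {ι X : Type*} [DecidableEq ι] [MeasurableSpace X] (μ : Measure X) [IsProbabilityMeasure μ]

lemma map_update (j : ι) :
    ((infinitePi fun _ : ι => μ).prod μ).map (fun p => update p.1 j p.2) =
      infinitePi fun _ : ι => μ := by
  refine eq_infinitePi _ fun s t ht => ?_
  rw [map_apply measurable_update' (MeasurableSet.pi s.countable_toSet fun i _ => ht i)]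
  have : (fun p : (ι → X) × X => update p.1 j p.2) ⁻¹' ((s : Set ι).pi t) =
      (((s.erase j : Finset ι) : Set ι).pi t) ×ˢ (if j ∈ s then t j else Set.univ) := by
    ext p
    simp only [Set.mem_preimage, Set.mem_pi, Finset.mem_coe, Set.mem_prod, Finset.mem_erase]
    constructor
    · intro h
      refine ⟨fun i hi => by simpa [update_of_ne hi.1] using h i hi.2, ?_⟩
      split_ifs with hj
      · simpa using h j hj
      · trivial
    · rintro ⟨h1, h2⟩ i hi
      by_cases e : i = j
      · subst e; simpa [hi] using h2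
      · rw [update_of_ne e]; exact h1 i ⟨e, hi⟩
  rw [this, prod_prod, infinitePi_pi _ fun i _ => ht i]
  split_ifs with hj
  · exact Finset.prod_erase_mul s (fun i => μ (t i)) hj
  · simp [Finset.erase_eq_of_notMem hj]

lemma lintegral_update (j : ι) {f : (ι → X) → ℝ≥0∞} (hf : Measurable f) :
    ∫⁻ x, f x ∂(infinitePi fun _ : ι => μ) =
      ∫⁻ x, ∫⁻ y, f (update x j y) ∂μ ∂(infinitePi fun _ : ι => μ) := by
  conv_lhs => rw [← map_update μ j]
  rw [lintegral_map hf measurable_update']
  exact lintegral_prod _ (hf.comp measurable_update').aemeasurable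

end upd

lemma measurable_of_fibers {α β γ : Type*} [MeasurableSpace α] [MeasurableSpace γ] [Countable β]
    {f : α → β} (hf : ∀ b, MeasurableSet {a | f a = b}) {g : β → α → γ}
    (hg : ∀ b, Measurable (g b)) : Measurable fun a => g (f a) a := by
  intro s hs
  have : (fun a => g (f a) a) ⁻¹' s = ⋃ b, {a | f a = b} ∩ g b ⁻¹' s := by
    ext a; simp
  rw [this]
  exact MeasurableSet.iUnion fun b => (hf b).inter (hg b hs)

variable {V : Type*}

instance : IsProbabilityMeasure (iid V) := by unfold iid; infer_instance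

lemma lintegral_iid_update (j : V) {f : (V → I) → ℝ≥0∞} (hf : Measurable f) :
    ∫⁻ x, f x ∂(iid V) = ∫⁻ x, ∫⁻ y, f (update x j y) ∂volume ∂(iid V) :=
  lintegral_update volume j hf

/-- the list of vertices that rang before time `t`, latest first -/
def Good (T : Finset V) (t : I) (τ : V → I) (l : List V) : Prop :=
  (∀ w, w ∈ l ↔ w ∈ T ∧ τ w < t) ∧ l.Pairwise (fun a b => τ b < τ a)

/-- the chosen list -/
noncomputable def lst (T : Finset V) (t : I) (τ : V → I) : List V :=
  if h : ∃ l, Good T t τ l then h.choose else []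

variable {T T' : Finset V} {t : I} {τ τ' : V → I} {l l' : List V} {w : V}

lemma Good.nodup (h : Good T t τ l) : l.Nodup :=
  h.2.imp fun {a b} hab e => by rw [e] at hab; exact lt_irrefl _ hab

lemma Good.unique (h : Good T t τ l) (h' : Good T t τ l') : l = l' :=
  List.Perm.eq_of_pairwise (le := fun a b => τ b < τ a)
    (fun _ _ _ _ h1 h2 => absurd h1 (lt_asymm h2)) h.2 h'.2
    ((List.perm_ext_iff_of_nodup h.nodup h'.nodup).2 fun a => (h.1 a).trans (h'.1 a).symm)

lemma Good.lst_eq (h : Good T t τ l) : lst T t τ = l := by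
  have : ∃ l, Good T t τ l := ⟨l, h⟩
  rw [lst, dif_pos this]
  exact this.choose_spec.unique h

lemma lst_cases (T : Finset V) (t : I) (τ : V → I) :
    Good T t τ (lst T t τ) ∨ ((¬ ∃ l, Good T t τ l) ∧ lst T t τ = []) := by
  by_cases h : ∃ l, Good T t τ l
  · obtain ⟨l, hl⟩ := h
    exact Or.inl (hl.lst_eq ▸ hl)
  · exact Or.inr ⟨h, by rw [lst, dif_neg h]⟩

lemma lst_nodup (T : Finset V) (t : I) (τ : V → I) : (lst T t τ).Nodup := by
  rcases lst_cases T t τ with h | h
  · exact h.nodup
  · rw [h.2]; exact List.nodup_nil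

lemma lst_congr (h : ∀ l, Good T t τ l ↔ Good T' t τ' l) : lst T t τ = lst T' t τ' := by
  rcases lst_cases T t τ with h1 | h1
  · exact ((h _).1 h1).lst_eq.symm
  · rw [h1.2, lst, dif_neg]
    exact fun ⟨l, hl⟩ => h1.1 ⟨l, (h l).2 hl⟩

lemma Good.tail (h : Good T t τ (w :: l)) : Good T (τ w) τ l := by
  obtain ⟨h1, h2⟩ := h
  rw [List.pairwise_cons] at h2
  refine ⟨fun x => ⟨fun hx => ⟨((h1 x).1 (List.mem_cons_of_mem _ hx)).1, h2.1 x hx⟩, fun hx => ?_⟩,
    h2.2⟩
  have := (h1 x).2 ⟨hx.1, hx.2.trans ((h1 w).1 List.mem_cons_self).2⟩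
  rcases List.mem_cons.1 this with rfl | h
  · exact absurd hx.2 (lt_irrefl _)
  · exact h

lemma good_lst (hτ : Set.InjOn τ T) (t : I) : Good T t τ (lst T t τ) := by
  let l0 := (T.filter (τ · < t)).toList
  have hp := List.mergeSort_perm l0 (fun a b => decide (τ b ≤ τ a))
  have hm : ∀ w, w ∈ l0.mergeSort (fun a b => decide (τ b ≤ τ a)) ↔ w ∈ T ∧ τ w < t := by
    intro w; rw [hp.mem_iff]; simp [l0]
  have : Good T t τ (l0.mergeSort (fun a b => decide (τ b ≤ τ a))) := by
    refine ⟨hm, ?_⟩
    have h1 := List.pairwise_mergeSort (le := fun a b => decide (τ b ≤ τ a))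
      (fun a b c h1 h2 => by simp only [decide_eq_true_eq] at *; exact h2.trans h1)
      (fun a b => by simpa using le_total _ _) l0
    have h2 : (l0.mergeSort (fun a b => decide (τ b ≤ τ a))).Nodup :=
      hp.nodup_iff.2 (Finset.nodup_toList _)
    refine (h1.and h2).imp_of_mem fun {a b} ha hb h => lt_of_le_of_ne (by simpa using h.1) ?_
    exact fun e => h.2 (hτ ((hm b).1 hb).1 ((hm a).1 ha).1 e).symm
  exact this.lst_eq ▸ this

lemma lst_filter (hT : T ⊆ T') (hτ : Set.InjOn τ T') (t : I) :
    lst T t τ = (lst T' t τ).filter (· ∈ T) := by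
  have h := good_lst hτ t
  refine Good.lst_eq ⟨fun w => ?_, h.2.filter _⟩
  simp only [List.mem_filter, h.1 w, decide_eq_true_eq]
  exact ⟨fun a => ⟨a.2, a.1.2⟩, fun a => ⟨⟨hT a.1, a.2⟩, a.1⟩⟩

lemma lst_update {s : I} (hs : t ≤ s) : lst T t (update τ w s) = lst (T.erase w) t τ := by
  refine lst_congr fun l => ?_
  have key : (∀ x, x ∈ l ↔ x ∈ T ∧ update τ w s x < t) ↔ ∀ x, x ∈ l ↔ x ∈ T.erase w ∧ τ x < t := by
    refine forall_congr' fun x => iff_congr Iff.rfl ?_
    by_cases e : x = w
    · subst e; simp [hs]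
    · simp [e]
  unfold Good
  rw [key]
  refine and_congr_right fun h => List.Pairwise.iff_of_mem fun {a b} ha hb => ?_
  rw [update_of_ne (Finset.ne_of_mem_erase ((h a).1 ha).1),
    update_of_ne (Finset.ne_of_mem_erase ((h b).1 hb).1)]

lemma lst_map (g : V ≃ V) (T : Finset V) (t : I) (τ : V → I) :
    lst (T.image g) t (fun v => τ (g.symm v)) = (lst T t τ).map g := by
  have key : ∀ (g : V ≃ V) (T T' : Finset V) (τ τ' : V → I) (l : List V),
      (∀ x, g x ∈ T' ↔ x ∈ T) → (∀ x, τ' (g x) = τ x) → Good T t τ l → Good T' t τ' (l.map g) := by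
    intro g T T' τ τ' l h1 h2 h
    refine ⟨fun x => ?_, List.pairwise_map.2 (by simpa only [h2] using h.2)⟩
    obtain ⟨x, rfl⟩ := g.surjective x
    rw [List.mem_map_of_injective g.injective, h.1, h1, h2]
  rcases lst_cases T t τ with h | h
  · exact (key g _ _ _ _ _ (by simp) (by simp) h).lst_eq
  · rw [h.2, lst, dif_neg]
    · rfl
    · rintro ⟨l, hl⟩
      refine h.1 ⟨_, key g.symm _ _ _ _ _ (fun x => ?_) (fun _ => rfl) hl⟩
      obtain ⟨x, rfl⟩ := g.surjective x
      simp

variable [Countable V]

lemma measurable_good (T : Finset V) (l : List V) :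
    Measurable fun p : I × (V → I) => Good T p.1 p.2 l := by
  refine Measurable.and (Measurable.forall fun w => measurable_const.iff (measurable_const.and
    (measurableSet_setOfPred.1 (measurableSet_lt (by fun_prop) (by fun_prop))))) ?_
  induction l with
  | nil => simp
  | cons a l ih =>
    simp only [List.pairwise_cons]
    exact Measurable.and (Measurable.forall fun w => measurable_const.imp
      (measurableSet_setOfPred.1 (measurableSet_lt (by fun_prop) (by fun_prop)))) ih

lemma measurableSet_lst (T : Finset V) (l : List V) :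
    MeasurableSet {p : I × (V → I) | lst T p.1 p.2 = l} := by
  have : ∀ p : I × (V → I), lst T p.1 p.2 = l ↔
      Good T p.1 p.2 l ∨ ((¬ ∃ l, Good T p.1 p.2 l) ∧ l = []) := by
    intro p
    constructor
    · rintro rfl; exact lst_cases _ _ _
    · rintro (h | h)
      · exact h.lst_eq
      · rw [h.2, lst, dif_neg h.1]
  simp only [this]
  exact measurableSet_setOfPred.2 ((measurable_good T l).or
    ((Measurable.exists fun l => measurable_good T l).not.and measurable_const))

lemma ae_injective : ∀ᵐ τ ∂(iid V), Injective τ := by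
  refine ae_all_iff.2 fun a => ae_all_iff.2 fun b => ?_
  by_cases e : a = b
  · exact ae_of_all _ fun _ _ => e
  have hm : MeasurableSet {τ : V → I | τ a = τ b} := measurableSet_eq_fun (by fun_prop) (by fun_prop)
  have : iid V {τ | τ a = τ b} = 0 := by
    rw [← lintegral_indicator_one hm, lintegral_iid_update a (measurable_one.indicator hm)]
    have : ∀ x : V → I, ∫⁻ y, Set.indicator {τ : V → I | τ a = τ b} (1 : (V → I) → ℝ≥0∞)
        (update x a y) = 0 := by
      intro x
      rw [← measure_singleton (μ := (volume : Measure I)) (x b),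
        ← lintegral_indicator_one (measurableSet_singleton _)]
      congr 1; funext y
      simp [Set.indicator, update_of_ne (Ne.symm e)]
    simp [this]
  filter_upwards [measure_eq_zero_iff_ae_notMem.1 this] with τ h1 h2
  exact absurd h2 h1

end Vale.Agent.P161
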