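import Vale.Agent.P161.Lst

/-! Running a measurable update rule along the ring times. -/

namespace Vale.Agent.P161

open MeasureTheory Measure Function
open scoped Classical unitInterval ENNReal

variable {V St : Type*} (step : V → I → St → St)

/-- apply the updates of a list, last element first -/
def run : List V → (V → I) → St → St
  | [], _, x => x
  | w :: l, U, x => step w (U w) (run l U x)

variable [MeasurableSpace St]

/-- average over the marks -/
noncomputable def Pl (l : List V) (f : St → ℝ≥0∞) (x : St) : ℝ≥0∞ :=
  ∫⁻ U, f (run step l U x) ∂(iid V)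

/-- average over times and marks -/
noncomputable def Rt (T : Finset V) (t : I) (f : St → ℝ≥0∞) (x : St) : ℝ≥0∞ :=
  ∫⁻ τ, Pl step (lst T t τ) f x ∂(iid V)

/-- law after a round of length `t` -/
noncomputable def rnd (T : Finset V) (t : I) (ν : Measure St) : Measure St :=
  (ν.prod ((iid V).prod (iid V))).map (fun p => run step (lst T t p.2.1) p.2.2 p.1)

/-- the state after `n` rounds -/
noncomputable def st (T : Finset V) (t : I) (x0 : St) : ℕ → (ℕ → V → I) → St
  | 0, _ => x0
  | n + 1, ω => run step (lst T t (ω (2 * n))) (ω (2 * n + 1)) (st T t x0 n ω)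

/-- the noise of all rounds -/
noncomputable def noise (V : Type*) : Measure (ℕ → V → I) := infinitePi fun _ : ℕ => iid V

instance : IsProbabilityMeasure (noise V) := by unfold noise; infer_instance

variable {step} {f : St → ℝ≥0∞} {l : List V} {w : V} {x : St} {T : Finset V} {t : I}

omit [MeasurableSpace St] in
lemma run_update (hw : w ∉ l) (U : V → I) (y : I) (x : St) :
    run step l (update U w y) x = run step l U x := by
  induction l with
  | nil => rfl
  | cons a l ih =>
    simp only [List.mem_cons, not_or] at hw
    simp only [run, ih hw.2, update_of_ne (Ne.symm hw.1)]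

omit [MeasurableSpace St] in
lemma st_update {x0 : St} {n j : ℕ} (hj : 2 * n ≤ j) (ω : ℕ → V → I) (y : V → I) :
    st step T t x0 n (update ω j y) = st step T t x0 n ω := by
  induction n with
  | zero => rfl
  | succ n ih =>
    simp only [st]
    rw [ih (by omega), update_of_ne (by omega), update_of_ne (by omega)]

variable (hs : ∀ w, Measurable fun p : I × St => step w p.1 p.2)
include hs

lemma measurable_run (l : List V) : Measurable fun p : (V → I) × St => run step l p.1 p.2 := by
  induction l with
  | nil => exact measurable_snd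
  | cons a l ih => exact (hs a).comp (Measurable.prodMk (by fun_prop) ih)

lemma measurable_run_left (l : List V) (x : St) : Measurable fun U => run step l U x :=
  (measurable_run hs l).comp (measurable_id.prodMk measurable_const)

lemma measurable_Q (hf : Measurable f) (w : V) : Measurable fun x => ∫⁻ y, f (step w y x) :=
  Measurable.lintegral_prod_left' (f := fun p : I × St => f (step w p.1 p.2)) (hf.comp (hs w))

lemma Pl_cons (hf : Measurable f) (hw : w ∉ l) (x : St) :
    Pl step (w :: l) f x = Pl step l (fun x => ∫⁻ y, f (step w y x)) x := by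
  unfold Pl
  rw [lintegral_iid_update w (f := fun U => f (run step (w :: l) U x))
    (hf.comp (measurable_run_left hs _ _))]
  simp only [run, update_self, run_update hw]

omit hs [MeasurableSpace St] in
lemma Pl_mono {g : St → ℝ≥0∞} (h : ∀ x, f x ≤ g x) (l : List V) (x : St) :
    Pl step l f x ≤ Pl step l g x := lintegral_mono fun _ => h _

lemma Pl_super (hf : Measurable f) (h : ∀ w x, ∫⁻ y, f (step w y x) ≤ f x) (hl : l.Nodup)
    (x : St) : Pl step l f x ≤ f x := by
  induction l with
  | nil => simp [Pl, run]
  | cons a l ih =>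
    rw [List.nodup_cons] at hl
    rw [Pl_cons hs hf hl.1]
    exact (Pl_mono (h a) l x).trans (ih hl.2)

lemma Pl_contr (hf : Measurable f) (h : ∀ w x, ∫⁻ y, f (step w y x) ≤ f x) {c : ℝ≥0∞}
    (hc : ∀ x, ∫⁻ y, f (step w y x) ≤ c * f x) (hl : l.Nodup) (hw : w ∈ l)
    (x : St) : Pl step l f x ≤ c * f x := by
  induction l with
  | nil => simp at hw
  | cons a l ih =>
    rw [List.nodup_cons] at hl
    rw [Pl_cons hs hf hl.1]
    rcases List.mem_cons.1 hw with rfl | hw
    · refine (Pl_mono hc l x).trans ?_
      refine le_trans (le_of_eq ?_) (mul_le_mul_right (Pl_super hs hf h hl.2 x) c)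
      exact lintegral_const_mul c
        (hf.comp (measurable_run_left hs _ _))
    · exact (Pl_mono (h a) l x).trans (ih hl.2 hw)

lemma Pl_tele (hf : Measurable f) {g : V → St → ℝ≥0∞}
    (h : ∀ w x, ∫⁻ y, f (step w y x) ≤ f x + g w x) {τ : V → I} (hl : Good T t τ l) (x : St) :
    Pl step l f x ≤ f x + ∑ w ∈ l.toFinset, Pl step (lst T (τ w) τ) (g w) x := by
  induction l generalizing t with
  | nil => simp [Pl, run]
  | cons a l ih =>
    have hn := List.nodup_cons.1 hl.nodup
    rw [Pl_cons hs hf hn.1, List.toFinset_cons, Finset.sum_insert (by simpa using hn.1),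
      hl.tail.lst_eq]
    refine (Pl_mono (h a) l x).trans ?_
    have : Pl step l (fun x => f x + g a x) x = Pl step l f x + Pl step l (g a) x :=
      lintegral_add_left
        (hf.comp (measurable_run_left hs _ _)) _
    rw [this, add_comm (Pl step l (g a) x), ← add_assoc]
    exact add_le_add (ih hl.tail) le_rfl

variable [Countable V]

lemma measurable_run_lst {α : Type*} [MeasurableSpace α] (T : Finset V) {a : α → I}
    {b c : α → V → I} {d : α → St} (ha : Measurable a) (hb : Measurable b) (hc : Measurable c)
    (hd : Measurable d) : Measurable fun z => run step (lst T (a z) (b z)) (c z) (d z) :=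
  measurable_of_fibers (f := fun z => lst T (a z) (b z))
    (fun l => (ha.prodMk hb) (measurableSet_lst T l)) (g := fun l z => run step l (c z) (d z))
    fun l => (measurable_run hs l).comp (hc.prodMk hd)

lemma measurable_Pl_lst {α : Type*} [MeasurableSpace α] (T : Finset V) (hf : Measurable f)
    {a : α → I} {b : α → V → I} {d : α → St} (ha : Measurable a) (hb : Measurable b)
    (hd : Measurable d) : Measurable fun z => Pl step (lst T (a z) (b z)) f (d z) :=
  Measurable.lintegral_prod_right' (f := fun p : α × (V → I) =>
    f (run step (lst T (a p.1) (b p.1)) p.2 (d p.1))) (hf.comp (measurable_run_lst hs T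
      (ha.comp measurable_fst) (hb.comp measurable_fst) measurable_snd (hd.comp measurable_fst)))

lemma measurable_Rt {α : Type*} [MeasurableSpace α] (T : Finset V) (hf : Measurable f)
    {a : α → I} {d : α → St} (ha : Measurable a) (hd : Measurable d) :
    Measurable fun z => Rt step T (a z) f (d z) :=
  Measurable.lintegral_prod_right' (f := fun p : α × (V → I) =>
    Pl step (lst T (a p.1) p.2) f (d p.1)) (measurable_Pl_lst hs T hf
      (ha.comp measurable_fst) measurable_snd (hd.comp measurable_fst))

omit [Countable V] in
lemma Rt_super (hf : Measurable f) (h : ∀ w x, ∫⁻ y, f (step w y x) ≤ f x) (x : St) :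
    Rt step T t f x ≤ f x := by
  have := lintegral_mono (μ := iid V) fun τ => Pl_super hs hf h (lst_nodup T t τ) x
  simpa [Rt] using this

lemma Rt_contr (hf : Measurable f) (h : ∀ w x, ∫⁻ y, f (step w y x) ≤ f x) {c : ℝ} (hc0 : 0 ≤ c)
    (hc : ∀ x, ∫⁻ y, f (step w y x) ≤ ENNReal.ofReal c * f x) (hw : w ∈ T) (x : St) :
    Rt step T t f x ≤ ENNReal.ofReal (c * t + (1 - t)) * f x := by
  have h1 : Rt step T t f x ≤ ∫⁻ τ, ((Set.Iio t).indicator (fun _ => ENNReal.ofReal c * f x) (τ w) +
      (Set.Ici t).indicator (fun _ => f x) (τ w)) ∂(iid V) := by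
    refine lintegral_mono_ae ?_
    filter_upwards [ae_injective] with τ hτ
    have hg := good_lst (T := T) hτ.injOn t
    by_cases e : τ w < t
    · simpa [Set.indicator, e, not_le.2 e] using Pl_contr hs hf h hc hg.nodup ((hg.1 w).2 ⟨hw, e⟩) x
    · simpa [Set.indicator, e, not_lt.1 e] using Pl_super hs hf h hg.nodup x
  refine h1.trans (le_of_eq ?_)
  have := (measurePreserving_eval_infinitePi (fun _ : V => (volume : Measure I)) w).lintegral_comp
    (f := fun s => (Set.Iio t).indicator (fun _ => ENNReal.ofReal c * f x) s +
      (Set.Ici t).indicator (fun _ => f x) s) ((measurable_const.indicator measurableSet_Iio).add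
      (measurable_const.indicator measurableSet_Ici))
  refine this.trans ?_
  rw [lintegral_add_left (measurable_const.indicator measurableSet_Iio),
    lintegral_indicator_const measurableSet_Iio, lintegral_indicator_const measurableSet_Ici,
    unitInterval.volume_Iio, unitInterval.volume_Ici,
    ENNReal.ofReal_add (mul_nonneg hc0 t.2.1) (sub_nonneg.2 t.2.2), ENNReal.ofReal_mul hc0]
  ring

lemma hazard (hf : Measurable f) (ht : (t : ℝ) ≤ 1 / 2) (w : V) (x : St) :
    ∫⁻ τ, (if τ w < t then Pl step (lst T (τ w) τ) f x else 0) ∂(iid V) ≤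
      ∫⁻ s : I, if s < t then 2 * Rt step T s f x else 0 := by
  have m1 : Measurable fun p : (V → I) × I =>
      if p.2 < t then Pl step (lst (T.erase w) p.2 p.1) f x else 0 :=
    Measurable.ite (measurableSet_lt measurable_snd measurable_const)
      (measurable_Pl_lst hs _ hf measurable_snd measurable_fst measurable_const) measurable_const
  rw [lintegral_iid_update w (Measurable.ite (measurableSet_lt (by fun_prop) measurable_const)
    (measurable_Pl_lst hs _ hf (by fun_prop) measurable_id' measurable_const) measurable_const)]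
  simp only [update_self, lst_update le_rfl]
  rw [lintegral_lintegral_swap m1.aemeasurable]
  refine lintegral_mono fun s => ?_
  by_cases e : s < t
  swap
  · simp [e]
  simp only [e, if_true]
  unfold Rt
  rw [lintegral_iid_update w (f := fun τ => Pl step (lst T s τ) f x)
    (measurable_Pl_lst hs _ hf measurable_const measurable_id' measurable_const),
    ← lintegral_const_mul' _ _ (by simp)]
  refine lintegral_mono fun τ => ?_
  have h1 : ∫⁻ y : I, (Set.Ici s).indicator (fun _ => Pl step (lst (T.erase w) s τ) f x) y ≤
      ∫⁻ y : I, Pl step (lst T s (update τ w y)) f x := by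
    refine lintegral_mono fun y => ?_
    by_cases hy : s ≤ y
    · simp [Set.indicator, hy, lst_update hy]
    · simp [Set.indicator, hy]
  rw [lintegral_indicator_const measurableSet_Ici, unitInterval.volume_Ici] at h1
  refine le_trans ?_ (mul_le_mul_right h1 2)
  have e' : (s : ℝ) < t := e
  have h2 : (1 : ℝ≥0∞) ≤ 2 * ENNReal.ofReal (1 - s) := by
    rw [← ENNReal.ofReal_ofNat, ← ENNReal.ofReal_mul (by norm_num), ENNReal.one_le_ofReal]
    linarith
  calc _ = 1 * Pl step (lst (T.erase w) s τ) f x := (one_mul _).symm
    _ ≤ _ := mul_le_mul_left h2 _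
    _ = _ := by ring

lemma Rt_tele (hf : Measurable f) {g : V → St → ℝ≥0∞} (hg : ∀ w, Measurable (g w))
    (h : ∀ w x, ∫⁻ y, f (step w y x) ≤ f x + g w x) (ht : (t : ℝ) ≤ 1 / 2) (x : St) :
    Rt step T t f x ≤ f x + ∑ w ∈ T, ∫⁻ s : I, if s < t then 2 * Rt step T s (g w) x else 0 := by
  have h1 : Rt step T t f x ≤ ∫⁻ τ, (f x + ∑ w ∈ T,
      (if τ w < t then Pl step (lst T (τ w) τ) (g w) x else 0)) ∂(iid V) := by
    refine lintegral_mono fun τ => ?_
    rcases lst_cases T t τ with h1 | h1
    · refine (Pl_tele hs hf h h1 x).trans (le_of_eq ?_)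
      rw [← Finset.sum_filter]
      congr 2
      ext w; simp [h1.1 w]
    · simp [h1.2, Pl, run]
  rw [lintegral_add_left measurable_const, lintegral_finsetSum _ fun w _ =>
    Measurable.ite (measurableSet_lt (by fun_prop) measurable_const)
    (measurable_Pl_lst hs _ (hg w) (by fun_prop) measurable_id' measurable_const)
    measurable_const] at h1
  refine h1.trans (add_le_add (by simp) (Finset.sum_le_sum fun w _ => hazard hs (hg w) ht w x))

lemma isProb_rnd (ν : Measure St) [IsProbabilityMeasure ν] :
    IsProbabilityMeasure (rnd step T t ν) :=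
  isProbabilityMeasure_map (measurable_run_lst hs T measurable_const (by fun_prop) (by fun_prop)
    measurable_fst).aemeasurable

lemma lintegral_rnd (hf : Measurable f) (ν : Measure St) :
    ∫⁻ x, f x ∂(rnd step T t ν) = ∫⁻ x, Rt step T t f x ∂ν := by
  have m := measurable_run_lst hs T (α := St × (V → I) × (V → I)) (a := fun _ => t)
    (b := fun p => p.2.1) (c := fun p => p.2.2) (d := fun p => p.1)
    measurable_const (by fun_prop) (by fun_prop) measurable_fst
  rw [rnd, lintegral_map hf m]
  refine (lintegral_prod _ (hf.comp m).aemeasurable).trans (lintegral_congr fun x => ?_)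
  exact lintegral_prod _ ((hf.comp m).comp measurable_prodMk_left).aemeasurable

lemma rnd_bound (hf : Measurable f) {g : V → St → ℝ≥0∞} (hg : ∀ w, Measurable (g w))
    (h : ∀ w x, ∫⁻ y, f (step w y x) ≤ f x + g w x) (ht : (t : ℝ) ≤ 1 / 2) (ν : Measure St)
    [SFinite ν] {B : ℝ≥0∞} (hB : ∀ s < t, ∑ w ∈ T, ∫⁻ x, g w x ∂(rnd step T s ν) ≤ B) :
    ∫⁻ x, f x ∂(rnd step T t ν) ≤ ∫⁻ x, f x ∂ν + 2 * B * ENNReal.ofReal t := by
  have m : ∀ w, Measurable fun p : St × I =>
      if p.2 < t then 2 * Rt step T p.2 (g w) p.1 else 0 := fun w =>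
    Measurable.ite (measurableSet_lt measurable_snd measurable_const)
      ((measurable_Rt hs T (hg w) measurable_snd measurable_fst).const_mul 2) measurable_const
  rw [lintegral_rnd hs hf]
  refine (lintegral_mono fun x => Rt_tele hs hf hg h ht x).trans ?_
  rw [lintegral_add_left hf, lintegral_finsetSum _ fun w _ => (m w).lintegral_prod_right']
  refine add_le_add le_rfl ?_
  rw [Finset.sum_congr rfl fun w _ => lintegral_lintegral_swap (m w).aemeasurable,
    ← lintegral_finsetSum _ fun w _ => (m w).lintegral_prod_left', ← unitInterval.volume_Iio,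
    ← lintegral_indicator_const measurableSet_Iio]
  refine lintegral_mono fun s => ?_
  by_cases e : s < t
  · simp only [e, if_true, Set.indicator, Set.mem_Iio]
    refine le_trans (le_of_eq ?_) (mul_le_mul_right (hB s e) 2)
    rw [Finset.mul_sum]
    exact Finset.sum_congr rfl fun w _ => by
      rw [lintegral_const_mul' _ _ (by simp), lintegral_rnd hs (hg w)]
  · simp [e]

lemma measurable_st (x0 : St) (n : ℕ) : Measurable (st step T t x0 n) := by
  induction n with
  | zero => exact measurable_const
  | succ n ih => exact measurable_run_lst hs T measurable_const (by fun_prop) (by fun_prop) ih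

lemma lintegral_st_succ {F : St → St → ℝ≥0∞} (hF : Measurable (uncurry F)) (x0 : St) (n : ℕ) :
    ∫⁻ ω, F (st step T t x0 n ω) (st step T t x0 (n + 1) ω) ∂(noise V) =
      ∫⁻ ω, Rt step T t (F (st step T t x0 n ω)) (st step T t x0 n ω) ∂(noise V) := by
  have m1 := measurable_st hs (T := T) (t := t) x0 n
  have m2 := measurable_st hs (T := T) (t := t) x0 (n + 1)
  unfold noise
  rw [lintegral_update (iid V) (2 * n + 1) (f := fun ω => F (st step T t x0 n ω)
    (st step T t x0 (n + 1) ω)) (hF.comp (m1.prodMk m2))]
  simp only [st, update_self, st_update (show 2 * n ≤ 2 * n + 1 by omega),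
    update_of_ne (show 2 * n ≠ 2 * n + 1 by omega)]
  rw [lintegral_update (iid V) (2 * n) (f := fun ω => ∫⁻ y, F (st step T t x0 n ω)
    (run step (lst T t (ω (2 * n))) y (st step T t x0 n ω)) ∂(iid V))]
  · simp only [update_self, st_update le_rfl]; rfl
  · exact Measurable.lintegral_prod_right' (f := fun p : (ℕ → V → I) × (V → I) =>
      F (st step T t x0 n p.1) (run step (lst T t (p.1 (2 * n))) p.2 (st step T t x0 n p.1)))
      (hF.comp ((m1.comp measurable_fst).prodMk (measurable_run_lst hs T measurable_const
        (by fun_prop) measurable_snd (m1.comp measurable_fst))))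

lemma map_st_succ (x0 : St) (n : ℕ) : (noise V).map (st step T t x0 (n + 1)) =
    rnd step T t ((noise V).map (st step T t x0 n)) := by
  refine Measure.ext_of_lintegral _ fun f hf => ?_
  rw [lintegral_map hf (measurable_st hs x0 _), lintegral_rnd hs hf,
    lintegral_map (measurable_Rt hs T hf measurable_const measurable_id') (measurable_st hs x0 _)]
  exact lintegral_st_succ hs (F := fun _ y => f y) (hf.comp measurable_snd) x0 n

end Vale.Agent.P161
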